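import Vale.Agent.P062.M.Mach

namespace Vale.Agent.P062.M

open Vale.Agent.P062

theorem tb_land (a b i : ℕ) : (Nat.land a b).testBit i = (a.testBit i && b.testBit i) :=
  Nat.testBit_and a b i

theorem tb_lor (a b i : ℕ) : (Nat.lor a b).testBit i = (a.testBit i || b.testBit i) :=
  Nat.testBit_or a b i

theorem tb_xor (a b i : ℕ) : (Nat.xor a b).testBit i = (a.testBit i ^^ b.testBit i) :=
  Nat.testBit_xor a b i

theorem tb_shl (a s i : ℕ) :
    (Nat.shiftLeft a s).testBit i = (decide (s ≤ i) && a.testBit (i - s)) :=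
  Nat.testBit_shiftLeft a

theorem tb_shr (a s i : ℕ) : (Nat.shiftRight a s).testBit i = a.testBit (s + i) :=
  Nat.testBit_shiftRight a

theorem tb_pbit (w sh b : ℕ) :
    (pbit w sh).testBit b = decide (b = Nat.land (Nat.shiftRight w sh) 4095 + 64) := by
  unfold pbit
  generalize Nat.land (Nat.shiftRight w sh) 4095 = x
  rw [tb_shl]
  have h64 : (18446744073709551616 : ℕ) = 2 ^ 64 := by norm_num
  rw [h64, Nat.testBit_two_pow]
  by_cases h : x ≤ b
  · simp only [h, decide_true, Bool.true_and, decide_eq_decide]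
    omega
  · simp only [h, decide_false, Bool.false_and]
    symm
    rw [decide_eq_false_iff_not]
    omega

theorem tb_small (w b : ℕ) (hw : w < 2 ^ 64) : w.testBit (b + 64) = false := by
  apply Nat.testBit_lt_two_pow
  exact lt_of_lt_of_le hw (Nat.pow_le_pow_right (by norm_num) (by omega))

theorem land_lt (a m k : ℕ) (hm : m < 2 ^ k) : Nat.land a m < 2 ^ k :=
  lt_of_le_of_lt (Nat.and_le_right) hm

theorem cellAt_inj {v : Cell} {i j : ℕ} (h : cellAt v i = cellAt v j) : i = j := by
  simp only [cellAt, Prod.mk.injEq] at h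
  omega

theorem cellAt_add (v : Cell) (j f : ℕ) (hj : j % 64 < 32) (hf : f % 64 < 32) :
    cellAt v (j + f) = cellAt (cellAt v f) j := by
  simp only [cellAt, Prod.mk.injEq]
  constructor <;> omega

theorem beq_eq {a b : ℕ} (h : Nat.beq a b = true) : a = b := Nat.eq_of_beq_eq_true h

end Vale.Agent.P062.M
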