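import Vale.Agent.P062.M.GoSound

namespace Vale.Agent.P062.M

open Vale.Agent.P062

theorem loMask_fin2 : ∀ r < 66, ∀ c < 64, loMask.testBit (64 * r + c) = true → c < 32 := by
  decide +kernel

theorem loMask_fin (b : ℕ) (hb : b < 4224) (h : loMask.testBit b = true) : b % 64 < 32 := by
  have e : 64 * (b / 64) + b % 64 = b := Nat.div_add_mod b 64
  refine loMask_fin2 (b / 64) (by omega) (b % 64) (by omega) ?_
  rw [e]
  exact h

theorem loMask_lt : loMask < 2 ^ 4224 := by decide +kernel

theorem loMask_col (b : ℕ) (h : loMask.testBit b = true) : b % 64 < 32 := by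
  by_cases hb : b < 4224
  · exact loMask_fin b hb h
  · have : loMask.testBit b = false := by
      apply Nat.testBit_lt_two_pow
      exact lt_of_lt_of_le loMask_lt (Nat.pow_le_pow_right (by norm_num) (by omega))
    rw [this] at h
    exact absurd h (by simp)

theorem check_spec {fuel : ℕ} {pieces : List ℕ} {deps : List VPat} {P Z : ℕ}
    (h : check fuel pieces deps P Z = true) :
    ∃ p I U d, go (join pieces) fuel 0 P deps = Res.ok p I U d ∧
      Nat.shiftRight I 64 = Nat.shiftRight Z 64 ∧ Nat.shiftRight U 64 = Nat.shiftRight Z 64 ∧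
      Nat.land (Nat.lor P Z) loMask = Nat.lor P Z := by
  have h' : @Res.rec (fun _ => Bool) false (fun _ I U _ =>
      Bool.and (Nat.beq (Nat.shiftRight I 64) (Nat.shiftRight Z 64))
        (Bool.and (Nat.beq (Nat.shiftRight U 64) (Nat.shiftRight Z 64))
          (Nat.beq (Nat.land (Nat.lor P Z) loMask) (Nat.lor P Z))))
      (go (join pieces) fuel 0 P deps) = true := h
  cases hgo : go (join pieces) fuel 0 P deps with
  | fail =>
    rw [hgo] at h'
    exact absurd h' (by simp)
  | ok p I U d =>
    rw [hgo] at h'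
    have h2 : Bool.and (Nat.beq (Nat.shiftRight I 64) (Nat.shiftRight Z 64))
        (Bool.and (Nat.beq (Nat.shiftRight U 64) (Nat.shiftRight Z 64))
          (Nat.beq (Nat.land (Nat.lor P Z) loMask) (Nat.lor P Z))) = true := h'
    rw [Bool.and_eq_true, Bool.and_eq_true] at h2
    exact ⟨p, I, U, d, rfl, beq_eq h2.1, beq_eq h2.2.1, beq_eq h2.2.2⟩

theorem tb_of_shr {a b : ℕ} (h : Nat.shiftRight a 64 = Nat.shiftRight b 64) (j : ℕ) :
    a.testBit (j + 64) = b.testBit (j + 64) := by
  have h1 := congrArg (fun n => n.testBit j) h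
  simp only [tb_shr] at h1
  rw [add_comm]
  exact h1

theorem valid_of_sem {P I U Z : ℕ} (hs : Sem P I U)
    (hI : Nat.shiftRight I 64 = Nat.shiftRight Z 64)
    (hU : Nat.shiftRight U 64 = Nat.shiftRight Z 64) : Valid P Z := by
  intro v S B hP hZ hd
  obtain ⟨y, hy⟩ := exists_fresh (S ∪ B ∪ (Finset.range Z).image (cellAt v))
  rw [Finset.mem_union, Finset.mem_union, not_or, not_or] at hy
  obtain ⟨⟨hyS, hyB⟩, hyZ⟩ := hy
  have hd' : Disjoint S (insert y B) := by
    rw [Finset.disjoint_left]
    intro a ha ha'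
    rw [Finset.mem_insert] at ha'
    rcases ha' with rfl | ha'
    · exact hyS ha
    · exact (Finset.disjoint_left.1 hd) ha ha'
  have := hs v S B y hP hd' (fun j hj => hZ j (by rw [← tb_of_shr hU j]; exact hj)) (by
    intro j hj hjy
    apply hyZ
    rw [Finset.mem_image]
    refine ⟨j, ?_, hjy⟩
    rw [Finset.mem_range]
    rw [tb_of_shr hI j] at hj
    have h1 : 2 ^ (j + 64) ≤ Z := Nat.ge_two_pow_of_testBit hj
    have h2 : j + 64 < 2 ^ (j + 64) := Nat.lt_two_pow_self
    omega)
  exact mono this S B (Finset.Subset.refl _) (Finset.subset_insert _ _) hd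

theorem check_valid {fuel : ℕ} {pieces : List ℕ} {deps : List VPat} {P Z : ℕ}
    (h : check fuel pieces deps P Z = true) : Valid P Z := by
  obtain ⟨p, I, U, d, hgo, hI, hU, -⟩ := check_spec h
  exact valid_of_sem (go_sound _ _ _ _ _ _ _ _ _ hgo) hI hU

theorem check_cols {fuel : ℕ} {pieces : List ℕ} {deps : List VPat} {P Z : ℕ}
    (h : check fuel pieces deps P Z = true) :
    ∀ j, (P ||| Z).testBit (j + 64) = true → j % 64 < 32 := by
  obtain ⟨p, I, U, d, -, -, -, hlo⟩ := check_spec h
  intro j hj
  have h1 := congrArg (fun n => n.testBit (j + 64)) hlo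
  simp only [tb_land] at h1
  have hj' : (Nat.lor P Z).testBit (j + 64) = true := hj
  rw [hj', Bool.true_and] at h1
  have := loMask_col _ h1
  omega

/-- a proved situation obtained from a successful run of the checker -/
noncomputable def VPat.ofCheck (fuel : ℕ) (pieces : List ℕ) (deps : List VPat) (P Z : ℕ)
    (h : check fuel pieces deps P Z = true) : VPat :=
  ⟨P, Z, check_valid h, check_cols h⟩

end Vale.Agent.P062.M
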