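import Vale.Agent.P062.M.Bits

namespace Vale.Agent.P062.M

open Vale.Agent.P062

theorem cellAt_off (v : Cell) (i dx dy : ℕ) (hi : i % 64 < 32) (hdx : dx ≤ 4) :
    cellAt v (i + (dx + 64 * dy)) = cellAt v i + ((dx : ℤ), (dy : ℤ)) := by
  simp only [cellAt, Prod.mk_add_mk, Prod.mk.injEq]
  constructor <;> omega

theorem copy_of_mask (i o : ℕ) (ho : o < 8) (hi : i % 64 < 32) (v : Cell) (S : Finset Cell)
    (h : ∀ b, (maskOf i o).testBit (b + 64) = true → cellAt v b ∈ S) :
    ∃ C, IsCopy C ∧ C ⊆ S := by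
  have hb : ∀ dx dy : ℕ, dx ≤ 4 →
      (Nat.land (Nat.shiftRight bases (Nat.mul o 384)) 39402006196394479212279040100143613805079739270465446667948293404245721771497210611414266254884915640806627990306815).testBit (dx + 64 * dy + 64) = true →
      cellAt v i + ((dx : ℤ), (dy : ℤ)) ∈ S := by
    intro dx dy hdx hbit
    rw [← cellAt_off v i dx dy hi hdx]
    apply h
    unfold maskOf
    rw [tb_shl]
    have e : i + (dx + 64 * dy) + 64 - i = dx + 64 * dy + 64 := by omega
    rw [e, hbit]
    simp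
    omega
  have mk : ∀ (s : Bool) (a b : ℤ) (t0 : Cell), (a = 1 ∨ a = -1) → (b = 1 ∨ b = -1) →
      (∀ p ∈ snaky, (cellAt v i + t0) + act s a b p ∈ S) → ∃ C, IsCopy C ∧ C ⊆ S := by
    intro s a b t0 ha hb' hall
    refine ⟨snaky.image (fun p => (cellAt v i + t0) + act s a b p), ⟨s, a, b, _, ha, hb', rfl⟩, ?_⟩
    intro c hc
    rw [Finset.mem_image] at hc
    obtain ⟨p, hp, rfl⟩ := hc
    exact hall p hp
  have e : ∀ (t0 q : Cell) (dx dy : ℕ), t0 + q = ((dx : ℤ), (dy : ℤ)) →
      cellAt v i + ((dx : ℤ), (dy : ℤ)) ∈ S → (cellAt v i + t0) + q ∈ S := by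
    intro t0 q dx dy h1 h2
    rw [add_assoc, h1]; exact h2
  interval_cases o
  · refine mk true 1 1 (0, 0) (by simp) (by simp) ?_
    simp only [snaky, Finset.forall_mem_insert, Finset.mem_singleton, forall_eq]
    refine ⟨e _ _ 0 0 (by simp [act]) (hb 0 0 (by norm_num) (by decide +kernel)),
      e _ _ 0 1 (by simp [act]) (hb 0 1 (by norm_num) (by decide +kernel)),
      e _ _ 0 2 (by simp [act]) (hb 0 2 (by norm_num) (by decide +kernel)),
      e _ _ 0 3 (by simp [act]) (hb 0 3 (by norm_num) (by decide +kernel)),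
      e _ _ 1 3 (by simp [act]) (hb 1 3 (by norm_num) (by decide +kernel)),
      e _ _ 1 4 (by simp [act]) (hb 1 4 (by norm_num) (by decide +kernel))⟩
  · refine mk true (-1) (-1) (1, 4) (by simp) (by simp) ?_
    simp only [snaky, Finset.forall_mem_insert, Finset.mem_singleton, forall_eq]
    refine ⟨e _ _ 1 4 (by simp [act]) (hb 1 4 (by norm_num) (by decide +kernel)),
      e _ _ 1 3 (by simp [act]) (hb 1 3 (by norm_num) (by decide +kernel)),
      e _ _ 1 2 (by simp [act]) (hb 1 2 (by norm_num) (by decide +kernel)),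
      e _ _ 1 1 (by simp [act]) (hb 1 1 (by norm_num) (by decide +kernel)),
      e _ _ 0 1 (by simp [act]) (hb 0 1 (by norm_num) (by decide +kernel)),
      e _ _ 0 0 (by simp [act]) (hb 0 0 (by norm_num) (by decide +kernel))⟩
  · refine mk false (-1) (-1) (4, 1) (by simp) (by simp) ?_
    simp only [snaky, Finset.forall_mem_insert, Finset.mem_singleton, forall_eq]
    refine ⟨e _ _ 4 1 (by simp [act]) (hb 4 1 (by norm_num) (by decide +kernel)),
      e _ _ 3 1 (by simp [act]) (hb 3 1 (by norm_num) (by decide +kernel)),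
      e _ _ 2 1 (by simp [act]) (hb 2 1 (by norm_num) (by decide +kernel)),
      e _ _ 1 1 (by simp [act]) (hb 1 1 (by norm_num) (by decide +kernel)),
      e _ _ 1 0 (by simp [act]) (hb 1 0 (by norm_num) (by decide +kernel)),
      e _ _ 0 0 (by simp [act]) (hb 0 0 (by norm_num) (by decide +kernel))⟩
  · refine mk false 1 1 (0, 0) (by simp) (by simp) ?_
    simp only [snaky, Finset.forall_mem_insert, Finset.mem_singleton, forall_eq]
    refine ⟨e _ _ 0 0 (by simp [act]) (hb 0 0 (by norm_num) (by decide +kernel)),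
      e _ _ 1 0 (by simp [act]) (hb 1 0 (by norm_num) (by decide +kernel)),
      e _ _ 2 0 (by simp [act]) (hb 2 0 (by norm_num) (by decide +kernel)),
      e _ _ 3 0 (by simp [act]) (hb 3 0 (by norm_num) (by decide +kernel)),
      e _ _ 3 1 (by simp [act]) (hb 3 1 (by norm_num) (by decide +kernel)),
      e _ _ 4 1 (by simp [act]) (hb 4 1 (by norm_num) (by decide +kernel))⟩
  · refine mk true 1 (-1) (0, 4) (by simp) (by simp) ?_
    simp only [snaky, Finset.forall_mem_insert, Finset.mem_singleton, forall_eq]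
    refine ⟨e _ _ 0 4 (by simp [act]) (hb 0 4 (by norm_num) (by decide +kernel)),
      e _ _ 0 3 (by simp [act]) (hb 0 3 (by norm_num) (by decide +kernel)),
      e _ _ 0 2 (by simp [act]) (hb 0 2 (by norm_num) (by decide +kernel)),
      e _ _ 0 1 (by simp [act]) (hb 0 1 (by norm_num) (by decide +kernel)),
      e _ _ 1 1 (by simp [act]) (hb 1 1 (by norm_num) (by decide +kernel)),
      e _ _ 1 0 (by simp [act]) (hb 1 0 (by norm_num) (by decide +kernel))⟩
  · refine mk false (-1) 1 (4, 0) (by simp) (by simp) ?_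
    simp only [snaky, Finset.forall_mem_insert, Finset.mem_singleton, forall_eq]
    refine ⟨e _ _ 4 0 (by simp [act]) (hb 4 0 (by norm_num) (by decide +kernel)),
      e _ _ 3 0 (by simp [act]) (hb 3 0 (by norm_num) (by decide +kernel)),
      e _ _ 2 0 (by simp [act]) (hb 2 0 (by norm_num) (by decide +kernel)),
      e _ _ 1 0 (by simp [act]) (hb 1 0 (by norm_num) (by decide +kernel)),
      e _ _ 1 1 (by simp [act]) (hb 1 1 (by norm_num) (by decide +kernel)),
      e _ _ 0 1 (by simp [act]) (hb 0 1 (by norm_num) (by decide +kernel))⟩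
  · refine mk false 1 (-1) (0, 1) (by simp) (by simp) ?_
    simp only [snaky, Finset.forall_mem_insert, Finset.mem_singleton, forall_eq]
    refine ⟨e _ _ 0 1 (by simp [act]) (hb 0 1 (by norm_num) (by decide +kernel)),
      e _ _ 1 1 (by simp [act]) (hb 1 1 (by norm_num) (by decide +kernel)),
      e _ _ 2 1 (by simp [act]) (hb 2 1 (by norm_num) (by decide +kernel)),
      e _ _ 3 1 (by simp [act]) (hb 3 1 (by norm_num) (by decide +kernel)),
      e _ _ 3 0 (by simp [act]) (hb 3 0 (by norm_num) (by decide +kernel)),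
      e _ _ 4 0 (by simp [act]) (hb 4 0 (by norm_num) (by decide +kernel))⟩
  · refine mk true (-1) 1 (1, 0) (by simp) (by simp) ?_
    simp only [snaky, Finset.forall_mem_insert, Finset.mem_singleton, forall_eq]
    refine ⟨e _ _ 1 0 (by simp [act]) (hb 1 0 (by norm_num) (by decide +kernel)),
      e _ _ 1 1 (by simp [act]) (hb 1 1 (by norm_num) (by decide +kernel)),
      e _ _ 1 2 (by simp [act]) (hb 1 2 (by norm_num) (by decide +kernel)),
      e _ _ 1 3 (by simp [act]) (hb 1 3 (by norm_num) (by decide +kernel)),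
      e _ _ 0 3 (by simp [act]) (hb 0 3 (by norm_num) (by decide +kernel)),
      e _ _ 0 4 (by simp [act]) (hb 0 4 (by norm_num) (by decide +kernel))⟩

end Vale.Agent.P062.M
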