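import Vale.Agent.P062.M.Sound

namespace Vale.Agent.P062.M

open Vale.Agent.P062

theorem anchor_col (a : ℕ) : Nat.land a 4063 % 64 < 32 := by
  have h1 : Nat.land a 4063 % 64 = (a &&& 4063) &&& 63 :=
    (Nat.and_two_pow_sub_one_eq_mod (a &&& 4063) 6).symm
  rw [h1, Nat.and_assoc]
  have h2 : (4063 &&& 63 : ℕ) = 31 := by decide
  rw [h2]
  exact Nat.lt_succ_of_le Nat.and_le_right

theorem shr_lt (w a b : ℕ) (hw : w < 2 ^ (a + b)) : Nat.shiftRight w a < 2 ^ b := by
  have : Nat.shiftRight w a = w / 2 ^ a := Nat.shiftRight_eq_div_pow w a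
  rw [this, Nat.div_lt_iff_lt_mul (by positivity)]
  rwa [pow_add, mul_comm] at hw

def IH (ih : ℕ → ℕ → List VPat → Res) : Prop :=
  ∀ pos M deps p I U d, ih pos M deps = Res.ok p I U d → Sem M I U

theorem tb_move (M w sh j : ℕ) (hw : w < 2 ^ 64)
    (h : (Nat.xor M (Nat.lor (pbit w sh) w)).testBit (j + 64) = true) :
    M.testBit (j + 64) = true ∨ j = Nat.land (Nat.shiftRight w sh) 4095 := by
  rw [tb_xor, tb_lor, tb_pbit, tb_small w j hw, Bool.or_false] at h
  by_cases hj : j = Nat.land (Nat.shiftRight w sh) 4095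
  · exact Or.inr hj
  · left
    have h2 : decide (j + 64 = Nat.land (Nat.shiftRight w sh) 4095 + 64) = false := by
      rw [decide_eq_false_iff_not]
      omega
    rw [h2, Bool.xor_false] at h
    exact h

theorem stepT_sound {ih : ℕ → ℕ → List VPat → Res} (hih : IH ih) {w pos M : ℕ}
    {deps : List VPat} (hw : w < 2 ^ 42) {p I U : ℕ} {d : List VPat}
    (h : stepT ih w pos (Nat.xor M (Nat.lor (pbit w 3) w)) deps = Res.ok p I U d) :
    Sem M I U := by
  have hw64 : w < 2 ^ 64 := lt_of_lt_of_le hw (Nat.pow_le_pow_right (by norm_num) (by norm_num))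
  unfold stepT at h
  obtain ⟨hb1, h⟩ := of_brec h (by simp)
  obtain ⟨p2, i2, u2, d2, hcall, h⟩ := of_rrec h (by simp)
  obtain ⟨hb2, h⟩ := of_brec h (by simp)
  simp only [Res.ok.injEq] at h
  obtain ⟨-, rfl, rfl, -⟩ := h
  apply sem_of_valid
  refine valid_T (x := Nat.land (Nat.shiftRight w 3) 4095)
    (y := Nat.land (Nat.shiftRight w 15) 4095) (fun j hj => tb_move M w 3 j hw64 hj)
    (hih _ _ _ _ _ _ _ hcall) ?_ ?_ ?_ ?_ ?_
  · have h1 := congrArg (fun n => n.testBit (Nat.land (Nat.shiftRight w 15) 4095 + 64))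
      (beq_eq hb2)
    simpa [tb_land, tb_pbit] using h1
  · rw [tb_xor, tb_lor, tb_lor, tb_pbit, tb_small w _ hw64]
    simp
  · rw [tb_xor, tb_lor, tb_lor, tb_pbit, tb_pbit, tb_small w _ hw64]
    simp
  · intro j hj
    rw [tb_xor, tb_lor, hj, tb_small w _ hw64]
    simp
  · exact copy_cond (shr_lt w 39 3 hw) (anchor_col _) (tb_pbit w 15) (beq_eq hb1)

theorem stepW_sound {w pos M : ℕ} {deps : List VPat} (hw : w < 2 ^ 30) {p I U : ℕ}
    {d : List VPat} (h : stepW w pos M deps = Res.ok p I U d) : Sem M I U := by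
  unfold stepW at h
  obtain ⟨hb1, h⟩ := of_brec h (by simp)
  simp only [Res.ok.injEq] at h
  obtain ⟨-, rfl, rfl, -⟩ := h
  apply sem_of_valid
  refine valid_W (y := Nat.land (Nat.shiftRight w 3) 4095) ?_ ?_
  · rw [tb_pbit]
    simp
  · exact copy_cond (shr_lt w 27 3 hw) (anchor_col _) (tb_pbit w 3) (beq_eq hb1)

theorem stepN_sound {ih : ℕ → ℕ → List VPat → Res} (hih : IH ih) {w pos M : ℕ}
    {deps : List VPat} (hw : w < 2 ^ 42) {p I U : ℕ} {d : List VPat}
    (h : stepN ih w pos M deps = Res.ok p I U d) : Sem M I U := by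
  have hw64 : w < 2 ^ 64 := lt_of_lt_of_le hw (Nat.pow_le_pow_right (by norm_num) (by norm_num))
  unfold stepN at h
  obtain ⟨p2, i2, u2, d2, hcall, h⟩ := of_rrec h (by simp)
  obtain ⟨hb2, h⟩ := of_brec h (by simp)
  simp only [Res.ok.injEq] at h
  obtain ⟨-, rfl, rfl, -⟩ := h
  apply sem_of_valid
  refine valid_N (x := Nat.land (Nat.shiftRight w 3) 4095) (fun j hj => tb_move M w 3 j hw64 hj)
    (hih _ _ _ _ _ _ _ hcall) ?_ ?_ ?_
  · intro j
    have h1 := congrArg (fun n => n.testBit j) (beq_eq hb2)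
    simp only [tb_shr, Nat.zero_testBit] at h1
    rw [add_comm]
    exact h1
  · rw [tb_xor, tb_lor, tb_pbit, tb_small w _ hw64]
    simp
  · intro j hj
    rw [tb_xor, tb_lor, hj, tb_small w _ hw64]
    simp

theorem stepA_sound {ih : ℕ → ℕ → List VPat → Res} (hih : IH ih) {pos M : ℕ}
    {deps : List VPat} {p I U : ℕ} {d : List VPat}
    (h : stepA ih pos M deps = Res.ok p I U d) : Sem M I U := by
  unfold stepA at h
  obtain ⟨p2, i2, u2, d2, hcall, h⟩ := of_rrec h (by simp)
  obtain ⟨p3, i3, u3, d3, hcall3, h⟩ := of_rrec h (by simp)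
  simp only [Res.ok.injEq] at h
  obtain ⟨-, rfl, rfl, -⟩ := h
  exact sem_A (hih _ _ _ _ _ _ _ hcall) (hih _ _ _ _ _ _ _ hcall3)

theorem stepR_sound {w f pos M : ℕ} {deps : List VPat} (hw : w < 2 ^ 42) (hf : f % 64 < 32)
    {p I U : ℕ} {d : List VPat} (h : stepR w f pos M deps = Res.ok p I U d) : Sem M I U := by
  have hw64 : w < 2 ^ 64 := lt_of_lt_of_le hw (Nat.pow_le_pow_right (by norm_num) (by norm_num))
  unfold stepR at h
  cases deps with
  | nil => exact absurd h (by simp)
  | cons e rest =>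
    obtain ⟨hb1, h⟩ := of_brec (b := Nat.beq (Nat.land M (Nat.shiftLeft e.P f))
      (Nat.shiftLeft e.P f)) h (by simp)
    simp only [Res.ok.injEq] at h
    obtain ⟨-, rfl, rfl, -⟩ := h
    apply sem_of_valid
    exact valid_R e hf hw64 (beq_eq hb1) rfl

theorem step1_sound {ih : ℕ → ℕ → List VPat → Res} (hih : IH ih) {w pos M : ℕ}
    {deps : List VPat} (hw : w < 2 ^ 42) {p I U : ℕ} {d : List VPat}
    (h : step1 ih w pos M deps = Res.ok p I U d) : Sem M I U := by
  unfold step1 at h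
  generalize Nat.land w 7 = t at h
  rcases t with _ | _ | _ | _ | _ | t
  · exact stepT_sound hih hw h
  · exact stepW_sound (land_lt w 1073741823 30 (by norm_num)) h
  · exact stepA_sound hih h
  · exact stepR_sound hw (anchor_col _) h
  · exact stepN_sound hih hw h
  · exact absurd h (by simp)

theorem go_sound (code fuel : ℕ) : IH (go code fuel) := by
  induction fuel with
  | zero =>
    intro pos M deps p I U d h
    exact absurd h (by simp [go])
  | succ n ih =>
    intro pos M deps p I U d h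
    exact step1_sound ih (land_lt _ 4398046511103 42 (by norm_num)) h

end Vale.Agent.P062.M
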