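import Vale.Agent.P062.Game

namespace Vale.Agent.P062.M

open Vale.Agent.P062

theorem exists_fresh (T : Finset Cell) : ∃ z : Cell, z ∉ T := Infinite.exists_notMem_finset T

/-- Monotonicity: more Maker stones and fewer Breaker stones cannot hurt Maker. -/
theorem mono {S B : Finset Cell} (h : MakerWins Set.univ S B) :
    ∀ (S' B' : Finset Cell), S ⊆ S' → B' ⊆ B → Disjoint S' B' → MakerWins Set.univ S' B' := by
  induction h with
  | @win S B x hx hxM hxB C hC hCB hsub =>
    intro S' B' hS hB hd
    by_cases hx' : x ∈ S'
    · obtain ⟨z, hz⟩ := exists_fresh (S' ∪ B')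
      rw [Finset.mem_union, not_or] at hz
      refine MakerWins.win z (Set.mem_univ _) hz.1 hz.2 C hC hCB ?_
      intro c hc
      have := hsub hc
      rw [Finset.mem_insert] at this
      rw [Finset.mem_insert]
      rcases this with rfl | h1
      · exact Or.inr hx'
      · exact Or.inr (hS h1)
    · refine MakerWins.win x (Set.mem_univ _) hx' (fun h => hxB (hB h)) C hC hCB ?_
      exact hsub.trans (Finset.insert_subset_insert _ hS)
  | @step S B x hx hxM hxB y₀ hy₀ hy₀M hy₀B hall ih =>
    intro S' B' hS hB hd
    -- the move actually played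
    have key : ∀ z : Cell, z ∉ S' → z ∉ B' → insert x S ⊆ insert z S' →
        MakerWins Set.univ S' B' := by
      intro z hzS hzB hsub
      obtain ⟨w, hw⟩ := exists_fresh (insert z S' ∪ B')
      rw [Finset.mem_union, not_or] at hw
      refine MakerWins.step z (Set.mem_univ _) hzS hzB w (Set.mem_univ _) hw.1 hw.2 ?_
      intro y _ hyM hyB
      have hdis : Disjoint (insert z S') (insert y B') := by
        rw [Finset.disjoint_left]
        intro c hc hc'
        rw [Finset.mem_insert] at hc'
        rcases hc' with rfl | hc'
        · exact hyM hc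
        · rw [Finset.mem_insert] at hc
          rcases hc with rfl | hc
          · exact hzB hc'
          · exact (Finset.disjoint_left.1 hd) hc hc'
      by_cases hyB0 : y ∈ B
      · refine ih y₀ (Set.mem_univ _) hy₀M hy₀B _ _ hsub ?_ hdis
        intro c hc
        rw [Finset.mem_insert] at hc
        rw [Finset.mem_insert]
        rcases hc with rfl | hc
        · exact Or.inr hyB0
        · exact Or.inr (hB hc)
      · refine ih y (Set.mem_univ _) (fun h => hyM (hsub h)) hyB0 _ _ hsub ?_ hdis
        exact Finset.insert_subset_insert _ hB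
    by_cases hx' : x ∈ S'
    · obtain ⟨z, hz⟩ := exists_fresh (S' ∪ B')
      rw [Finset.mem_union, not_or] at hz
      refine key z hz.1 hz.2 ?_
      intro c hc
      rw [Finset.mem_insert] at hc
      rw [Finset.mem_insert]
      rcases hc with rfl | hc
      · exact Or.inr hx'
      · exact Or.inr (hS hc)
    · exact key x hx' (fun h => hxB (hB h)) (Finset.insert_subset_insert _ hS)

/-- Maker wins at once if one more cell (not Breaker's) completes a copy. -/
theorem win_of_copy {S B : Finset Cell} {C : Finset Cell} (hC : IsCopy C) (c : Cell)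
    (hsub : C ⊆ insert c S) (hcB : c ∉ B) : MakerWins Set.univ S B := by
  by_cases hc : c ∈ S
  · obtain ⟨z, hz⟩ := exists_fresh (S ∪ B)
    rw [Finset.mem_union, not_or] at hz
    refine MakerWins.win z (Set.mem_univ _) hz.1 hz.2 C hC (fun _ _ => Set.mem_univ _) ?_
    rw [Finset.insert_eq_of_mem hc] at hsub
    exact hsub.trans (Finset.subset_insert _ _)
  · exact MakerWins.win c (Set.mem_univ _) hc hcB C hC (fun _ _ => Set.mem_univ _) hsub

/-- Maker wins if after claiming `c` he wins against every reply. -/
theorem win_of_move {S B : Finset Cell} (hd : Disjoint S B) (c : Cell) (hcB : c ∉ B)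
    (h : ∀ y, y ∉ insert c S → y ∉ B → MakerWins Set.univ (insert c S) (insert y B)) :
    MakerWins Set.univ S B := by
  obtain ⟨w, hw⟩ := exists_fresh (insert c S ∪ B)
  rw [Finset.mem_union, not_or] at hw
  by_cases hc : c ∈ S
  · have := h w hw.1 hw.2
    rw [Finset.insert_eq_of_mem hc] at this
    exact mono this S B (Finset.Subset.refl _) (Finset.subset_insert _ _) hd
  · exact MakerWins.step c (Set.mem_univ _) hc hcB w (Set.mem_univ _) hw.1 hw.2
      (fun y _ hy1 hy2 => h y hy1 hy2)

end Vale.Agent.P062.M
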