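import Vale.Agent.P062.M.Check

namespace Vale.Agent.P062.M

open Vale.Agent.P062

/-- From a proved situation with the single Maker stone `o` whose zone avoids the cell `jb`:
Maker, owning one stone, beats the Breaker stone at the corresponding place. -/
theorem win_root (d : VPat) (o jb : ℕ) (hP : d.P = 2 ^ (o + 64))
    (hb : d.Z.testBit (jb + 64) = false) (hne : jb ≠ o) (v : Cell) :
    MakerWins Set.univ {cellAt v o} {cellAt v jb} := by
  refine d.valid v _ _ ?_ ?_ ?_
  · intro j hj
    rw [hP, Nat.testBit_two_pow] at hj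
    have : j = o := by
      have := of_decide_eq_true hj
      omega
    rw [this]
    exact Finset.mem_singleton_self _
  · intro j hj hmem
    rw [Finset.mem_singleton] at hmem
    have := cellAt_inj hmem
    subst this
    rw [hb] at hj
    exact absurd hj (by simp)
  · rw [Finset.disjoint_singleton]
    intro h
    exact hne (cellAt_inj h).symm

/-- the same, with the Maker stone moved to the origin -/
theorem win_root0 (d : VPat) (o jb : ℕ) (hP : d.P = 2 ^ (o + 64))
    (hb : d.Z.testBit (jb + 64) = false) (hne : jb ≠ o) (b : Cell)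
    (hbx : b.1 = ((jb % 64 : ℕ) : ℤ) - ((o % 64 : ℕ) : ℤ))
    (hby : b.2 = ((jb / 64 : ℕ) : ℤ) - ((o / 64 : ℕ) : ℤ)) :
    MakerWins Set.univ {(0, 0)} {b} := by
  have h := win_root d o jb hP hb hne (-((o % 64 : ℕ) : ℤ), -((o / 64 : ℕ) : ℤ))
  have e1 : cellAt (-((o % 64 : ℕ) : ℤ), -((o / 64 : ℕ) : ℤ)) o = (0, 0) := by
    simp [cellAt]
  have e2 : cellAt (-((o % 64 : ℕ) : ℤ), -((o / 64 : ℕ) : ℤ)) jb = b := by
    obtain ⟨b1, b2⟩ := b
    simp only [cellAt, Prod.mk.injEq]
    simp only at hbx hby
    constructor <;> omega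
  rwa [e1, e2] at h

end Vale.Agent.P062.M
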