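import Vale.Agent.P062.M.Copy

namespace Vale.Agent.P062.M

open Vale.Agent.P062

/-- meaning of the pair (intersection, union) of the zones of a list of alternatives -/
def Sem (M I U : ℕ) : Prop :=
  ∀ (v : Cell) (S B : Finset Cell) (y : Cell),
    (∀ j, M.testBit (j + 64) = true → cellAt v j ∈ S) →
    Disjoint S (insert y B) →
    (∀ j, U.testBit (j + 64) = true → cellAt v j ∉ B) →
    (∀ j, I.testBit (j + 64) = true → cellAt v j ≠ y) →
    MakerWins Set.univ S (insert y B)

theorem sem_of_valid {M Z : ℕ} (h : Valid M Z) : Sem M Z Z := by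
  intro v S B y hM hd hU hI
  refine h v S (insert y B) hM ?_ hd
  intro j hj hmem
  rw [Finset.mem_insert] at hmem
  rcases hmem with h1 | h1
  · exact hI j hj h1
  · exact hU j hj h1

theorem of_brec {k r : Res} {b : Bool}
    (h : @Bool.rec (fun _ => Res) Res.fail k b = r) (hr : r ≠ Res.fail) : b = true ∧ k = r := by
  cases b
  · exact absurd h.symm hr
  · exact ⟨rfl, h⟩

theorem of_rrec {k : ℕ → ℕ → ℕ → List VPat → Res} {x r : Res}
    (h : @Res.rec (fun _ => Res) Res.fail k x = r) (hr : r ≠ Res.fail) :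
    ∃ p i u d, x = Res.ok p i u d ∧ k p i u d = r := by
  cases x with
  | fail => exact absurd h.symm hr
  | ok p i u d => exact ⟨p, i, u, d, rfl, h⟩

theorem disj_insert {S B : Finset Cell} {c y : Cell} (hd : Disjoint S B) (hcB : c ∉ B)
    (hy : y ∉ insert c S) : Disjoint (insert c S) (insert y B) := by
  rw [Finset.disjoint_left]
  intro a ha ha'
  rw [Finset.mem_insert] at ha'
  rcases ha' with rfl | ha'
  · exact hy ha
  · rw [Finset.mem_insert] at ha
    rcases ha with rfl | ha
    · exact hcB ha'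
    · exact (Finset.disjoint_left.1 hd) ha ha'

/-- a quiet move: every reply is answered by some alternative -/
theorem valid_N {M M1 I U Z x : ℕ}
    (hM1 : ∀ j, M1.testBit (j + 64) = true → M.testBit (j + 64) = true ∨ j = x)
    (hsem : Sem M1 I U) (hI : ∀ j, I.testBit (j + 64) = false)
    (hZx : Z.testBit (x + 64) = true)
    (hZU : ∀ j, U.testBit (j + 64) = true → Z.testBit (j + 64) = true) : Valid M Z := by
  intro v S B hM hZ hd
  refine win_of_move hd (cellAt v x) (hZ x hZx) ?_
  intro y hy1 hy2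
  refine hsem v _ B y ?_ (disj_insert hd (hZ x hZx) hy1) (fun j hj => hZ j (hZU j hj)) ?_
  · intro j hj
    rw [Finset.mem_insert]
    rcases hM1 j hj with h | rfl
    · exact Or.inr (hM j h)
    · exact Or.inl rfl
  · intro j hj
    rw [hI j] at hj
    exact absurd hj (by simp)

/-- a threat: the reply at y is forced -/
theorem valid_T {M M1 I U Z x y : ℕ}
    (hM1 : ∀ j, M1.testBit (j + 64) = true → M.testBit (j + 64) = true ∨ j = x)
    (hsem : Sem M1 I U) (hIy : I.testBit (y + 64) = false)
    (hZx : Z.testBit (x + 64) = true) (hZy : Z.testBit (y + 64) = true)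
    (hZU : ∀ j, U.testBit (j + 64) = true → Z.testBit (j + 64) = true)
    (hcopy : ∀ (v : Cell) (S' : Finset Cell),
      (∀ j, (M1.testBit (j + 64) = true ∨ j = y) → cellAt v j ∈ S') → ∃ C, IsCopy C ∧ C ⊆ S') :
    Valid M Z := by
  intro v S B hM hZ hd
  refine win_of_move hd (cellAt v x) (hZ x hZx) ?_
  intro y' hy1 hy2
  have hM1S : ∀ j, M1.testBit (j + 64) = true → cellAt v j ∈ insert (cellAt v x) S := by
    intro j hj
    rw [Finset.mem_insert]
    rcases hM1 j hj with h | rfl
    · exact Or.inr (hM j h)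
    · exact Or.inl rfl
  by_cases hyy : y' = cellAt v y
  · refine hsem v _ B y' hM1S (disj_insert hd (hZ x hZx) hy1) (fun j hj => hZ j (hZU j hj)) ?_
    intro j hj hjy
    rw [hyy] at hjy
    have := cellAt_inj hjy
    subst this
    rw [hIy] at hj
    exact absurd hj (by simp)
  · obtain ⟨C, hC, hsub⟩ := hcopy v (insert (cellAt v y) (insert (cellAt v x) S)) (by
      intro j hj
      rw [Finset.mem_insert]
      rcases hj with hj | rfl
      · exact Or.inr (hM1S j hj)
      · exact Or.inl rfl)
    refine win_of_copy hC (cellAt v y) hsub ?_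
    rw [Finset.mem_insert, not_or]
    exact ⟨fun h => hyy h.symm, hZ y hZy⟩

theorem valid_W {M Z y : ℕ} (hZy : Z.testBit (y + 64) = true)
    (hcopy : ∀ (v : Cell) (S' : Finset Cell),
      (∀ j, (M.testBit (j + 64) = true ∨ j = y) → cellAt v j ∈ S') → ∃ C, IsCopy C ∧ C ⊆ S') :
    Valid M Z := by
  intro v S B hM hZ hd
  obtain ⟨C, hC, hsub⟩ := hcopy v (insert (cellAt v y) S) (by
    intro j hj
    rw [Finset.mem_insert]
    rcases hj with hj | rfl
    · exact Or.inr (hM j hj)
    · exact Or.inl rfl)
  exact win_of_copy hC (cellAt v y) hsub (hZ y hZy)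

theorem sem_A {M I1 U1 I2 U2 : ℕ} (h1 : Sem M I1 U1) (h2 : Sem M I2 U2) :
    Sem M (Nat.land I1 I2) (Nat.lor U1 U2) := by
  intro v S B y hM hd hU hI
  by_cases hcase : ∀ j, I1.testBit (j + 64) = true → cellAt v j ≠ y
  · refine h1 v S B y hM hd ?_ hcase
    intro j hj
    exact hU j (by rw [tb_lor, hj]; rfl)
  · simp only [not_forall, not_not] at hcase
    obtain ⟨j0, hj0, hj0y⟩ := hcase
    refine h2 v S B y hM hd ?_ ?_
    · intro j hj
      exact hU j (by rw [tb_lor, hj, Bool.or_true])
    · intro j hj hjy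
      have : j = j0 := cellAt_inj (hjy.trans hj0y.symm)
      subst this
      exact hI j (by rw [tb_land, hj, hj0]; rfl) hjy

/-- the copy condition extracted from the mask test -/
theorem copy_cond {M i o py y : ℕ} (ho : o < 8) (hi : i % 64 < 32)
    (hpy : ∀ b, py.testBit b = decide (b = y + 64))
    (h : Nat.xor (maskOf i o) (Nat.land M (maskOf i o)) = py) (v : Cell) (S' : Finset Cell)
    (hS : ∀ j, (M.testBit (j + 64) = true ∨ j = y) → cellAt v j ∈ S') :
    ∃ C, IsCopy C ∧ C ⊆ S' := by
  refine copy_of_mask i o ho hi v S' ?_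
  intro b hb
  apply hS
  have h1 := congrArg (fun n => n.testBit (b + 64)) h
  simp only [tb_xor, tb_land, hb, hpy, Bool.and_true] at h1
  by_cases hM : M.testBit (b + 64) = true
  · exact Or.inl hM
  · right
    simp only [Bool.not_eq_true] at hM
    rw [hM] at h1
    simp at h1
    exact h1

theorem valid_R (d : VPat) {M f Z w : ℕ} (hf : f % 64 < 32) (hw : w < 2 ^ 64)
    (hP : Nat.land M (Nat.shiftLeft d.P f) = Nat.shiftLeft d.P f)
    (hZ : Z = Nat.xor (Nat.xor (Nat.shiftLeft d.Z f) (Nat.land (Nat.shiftLeft d.Z f) M)) w) :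
    Valid M Z := by
  intro v S B hM hZB hd
  refine d.valid (cellAt v f) S B ?_ ?_ hd
  · intro j hj
    have hc : j % 64 < 32 := d.cols j (by rw [Nat.testBit_or, hj]; rfl)
    rw [← cellAt_add v j f hc hf]
    apply hM
    have h1 := congrArg (fun n => n.testBit (j + f + 64)) hP
    simp only [tb_land, tb_shl] at h1
    have e : j + f + 64 - f = j + 64 := by omega
    have e2 : f ≤ j + f + 64 := by omega
    rw [e, hj] at h1
    simp only [e2, decide_true, Bool.and_true] at h1
    exact h1
  · intro j hj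
    have hc : j % 64 < 32 := d.cols j (by rw [Nat.testBit_or, hj, Bool.or_true])
    rw [← cellAt_add v j f hc hf]
    by_cases hMb : M.testBit (j + f + 64) = true
    · intro hB
      exact (Finset.disjoint_left.1 hd) (hM _ hMb) hB
    · apply hZB
      simp only [Bool.not_eq_true] at hMb
      rw [hZ, tb_xor, tb_xor, tb_land, tb_shl, tb_small w _ hw, hMb]
      have e : j + f + 64 - f = j + 64 := by omega
      have e2 : f ≤ j + f + 64 := by omega
      rw [e, hj]
      simp [e2]

end Vale.Agent.P062.M
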